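import Vale.Agent.Lib.P310.Probe

/-!
# P310: an unconditional probe-complexity lower bound for deciding k-WL equivalence

Every deterministic adaptive probe algorithm (decision tree reading adjacency-matrix entries)
that decides `G ≡_k H` for pairs of graphs on `n` vertices, `k ≥ 2`, makes at least
`n * (n - 1)` probes in the worst case, i.e. it must read every off-diagonal entry of both
adjacency matrices (up to symmetry).
-/

namespace Vale.Agent.Results.P310.ProbeLowerBound

open Vale.Agent.Lib.P310

theorem result :
    ∀ (k n : ℕ), 2 ≤ k → ∀ T : ProbeTree n,
      (∀ G H : SimpleGraph (Fin n), T.Accepts G H ↔ WLEquiv k G H) →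
      n * (n - 1) ≤ T.depth :=
  fun _ _ hk T hT => probe_lower_bound hk T hT

end Vale.Agent.Results.P310.ProbeLowerBound
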